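import Mathlib

/-!
# P235 / GRID G4: good tuples in a connected relation
-/

namespace Vale.Agent.P235.H469

open Finset

variable {ι : Type*}

/-- `v` is reached from `o` in `k` steps -/
def Rch (R : ι → ι → Prop) (o : ι) : ℕ → ι → Prop
  | 0, v => v = o
  | k + 1, v => ∃ u, Rch R o k u ∧ R u v

theorem exists_rch {R : ι → ι → Prop} {o v : ι} (h : Relation.ReflTransGen R o v) :
    ∃ k, Rch R o k v := by
  induction h with
  | refl => exact ⟨0, rfl⟩
  | tail _ h2 ih =>
    obtain ⟨k, hk⟩ := ih
    exact ⟨k + 1, _, hk, h2⟩

/-- rooted tree: parent function and depth -/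
theorem exists_parent {R : ι → ι → Prop} (hR : ∀ a b, R a b → R b a) (o : ι)
    (hc : ∀ v, Relation.ReflTransGen R o v) :
    ∃ (p : ι → ι) (dep : ι → ℕ), dep o = 0 ∧ ∀ v, v ≠ o → R v (p v) ∧ dep v = dep (p v) + 1 := by
  classical
  let dep : ι → ℕ := fun v => Nat.find (exists_rch (hc v))
  have hdep : ∀ v, Rch R o (dep v) v := fun v => Nat.find_spec (exists_rch (hc v))
  have hmin : ∀ v k, Rch R o k v → dep v ≤ k := fun v k h => Nat.find_min' (exists_rch (hc v)) h
  have h0 : dep o = 0 := Nat.le_zero.1 (hmin o 0 rfl)
  have hp : ∀ v, v ≠ o → ∃ u, R v u ∧ dep v = dep u + 1 := by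
    intro v hv
    have h1 := hdep v
    rcases Nat.eq_zero_or_pos (dep v) with h2 | h2
    · rw [h2] at h1
      exact absurd h1 hv
    · obtain ⟨k, hk⟩ : ∃ k, dep v = k + 1 := ⟨dep v - 1, by omega⟩
      rw [hk] at h1
      obtain ⟨u, hu, huv⟩ := h1
      refine ⟨u, hR _ _ huv, ?_⟩
      have h3 : dep u ≤ k := hmin u k hu
      have h4 : dep v ≤ dep u + 1 := hmin v (dep u + 1) ⟨u, hdep u, huv⟩
      omega
  choose! p hp using hp
  exact ⟨p, dep, h0, hp⟩

/-- **good tuples**: in a connected symmetric relation on at least `r * (r - 1)` points there are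
`r` different points such that consecutive ones are joined outside the others -/
theorem exists_good_tuple [Fintype ι] {R : ι → ι → Prop} (hR : ∀ a b, R a b → R b a)
    (hc : ∀ a b, Relation.ReflTransGen R a b) {r : ℕ} (hr : 2 ≤ r)
    (hm : r * (r - 1) ≤ Fintype.card ι) :
    ∃ x : Fin r → ι, Function.Injective x ∧ ∀ j k : Fin r, (j : ℕ) + 1 = k →
      Relation.ReflTransGen (fun a b => R a b ∧ (b = x k ∨ ∀ l, b ≠ x l)) (x j) (x k) := by
  classical
  obtain ⟨s, rfl⟩ : ∃ s, r = s + 2 := ⟨r - 2, by omega⟩
  have hcard : 0 < Fintype.card ι := by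
    refine lt_of_lt_of_le ?_ hm
    exact Nat.mul_pos (by omega) (by omega)
  obtain ⟨o⟩ := Fintype.card_pos_iff.1 hcard
  obtain ⟨p, dep, h0, hp⟩ := exists_parent hR o (hc o)
  by_cases hdeep : ∃ v, s + 1 ≤ dep v
  · -- a deep vertex: consecutive ancestors
    obtain ⟨v, hv⟩ := hdeep
    have hdp : ∀ j, j ≤ dep v → dep (p^[j] v) = dep v - j := by
      intro j
      induction j with
      | zero => intro _; simp
      | succ j ih =>
        intro hj
        have h1 := ih (by omega)
        have h2 : p^[j] v ≠ o := by
          intro h
          rw [h, h0] at h1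
          omega
        have h3 := (hp _ h2).2
        rw [Function.iterate_succ_apply']
        omega
    refine ⟨fun j => p^[(j : ℕ)] v, ?_, ?_⟩
    · intro j k hjk
      have h1 := hdp j (by have := j.2; omega)
      have h2 := hdp k (by have := k.2; omega)
      have h3 : dep (p^[(j : ℕ)] v) = dep (p^[(k : ℕ)] v) := congrArg dep hjk
      have := j.2
      have := k.2
      exact Fin.ext (by omega)
    · intro j k hjk
      have h1 := hdp j (by have := j.2; omega)
      have hk := k.2
      have h2 : p^[(j : ℕ)] v ≠ o := by
        intro h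
        rw [h, h0] at h1
        omega
      have h3 := (hp _ h2).1
      have h4 : p^[(k : ℕ)] v = p (p^[(j : ℕ)] v) := by
        rw [← hjk, Function.iterate_succ_apply']
      rw [← h4] at h3
      exact Relation.ReflTransGen.single ⟨h3, Or.inl rfl⟩
  · -- many leaves
    push Not at hdeep
    let L : Finset ι := univ.filter fun v => ∀ w, w ≠ o → p w ≠ v
    have hL : ∀ v, v ∈ L ↔ ∀ w, w ≠ o → p w ≠ v := by
      intro v
      simp [L]
    have hanc : ∀ n v, s - dep v = n → v ≠ o → ∃ x ∈ L, ∃ k, p^[k] x = v ∧ dep x = dep v + k := by
      intro n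
      induction n with
      | zero =>
        intro v hn hv
        by_cases hvL : v ∈ L
        · exact ⟨v, hvL, 0, rfl, rfl⟩
        · rw [hL] at hvL
          push Not at hvL
          obtain ⟨w, hw, hwv⟩ := hvL
          have h1 := (hp w hw).2
          rw [hwv] at h1
          have h2 := hdeep w
          omega
      | succ n ih =>
        intro v hn hv
        by_cases hvL : v ∈ L
        · exact ⟨v, hvL, 0, rfl, rfl⟩
        · rw [hL] at hvL
          push Not at hvL
          obtain ⟨w, hw, hwv⟩ := hvL
          have h1 := (hp w hw).2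
          rw [hwv] at h1
          have h2 := hdeep w
          obtain ⟨x, hx, k, hk, hk'⟩ := ih w (by omega) hw
          refine ⟨x, hx, k + 1, ?_, by omega⟩
          rw [Function.iterate_succ_apply', hk, hwv]
    have hcov : (univ : Finset ι) ⊆ insert o ((L ×ˢ range s).image fun q => p^[q.2] q.1) := by
      intro v _
      rw [mem_insert]
      by_cases hv : v = o
      · exact Or.inl hv
      · right
        obtain ⟨x, hx, k, hk, hk'⟩ := hanc _ v rfl hv
        have h1 := (hp v hv).2
        have h2 := hdeep x
        exact mem_image.2 ⟨(x, k), mem_product.2 ⟨hx, mem_range.2 (by omega)⟩, hk⟩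
    have hLcard : s + 2 ≤ L.card := by
      by_contra hlt
      push Not at hlt
      have h1 : Fintype.card ι ≤ L.card * s + 1 := by
        calc Fintype.card ι = (univ : Finset ι).card := rfl
          _ ≤ _ := card_le_card hcov
          _ ≤ ((L ×ˢ range s).image fun q => p^[q.2] q.1).card + 1 := card_insert_le _ _
          _ ≤ (L ×ˢ range s).card + 1 := Nat.add_le_add_right card_image_le 1
          _ = L.card * s + 1 := by rw [card_product, card_range]
      have h2 : L.card * s ≤ (s + 1) * s := Nat.mul_le_mul_right s (by omega)
      have h3 : (s + 2) * (s + 2 - 1) = (s + 1) * s + 2 * (s + 1) := by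
        have : s + 2 - 1 = s + 1 := by omega
        rw [this]; ring
      omega
    -- the root is not a leaf
    have hoL : o ∉ L := by
      intro ho
      have hall : ∀ n v, dep v = n → v = o := by
        intro n
        induction n with
        | zero =>
          intro v hv
          by_contra hvo
          have := (hp v hvo).2
          omega
        | succ n ih =>
          intro v hv
          by_contra hvo
          have h1 := (hp v hvo).2
          have h2 := ih (p v) (by omega)
          exact (hL o).1 ho v hvo h2
      have h1 : L ⊆ {o} := by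
        intro v _
        exact mem_singleton.2 (hall _ v rfl)
      have h2 := card_le_card h1
      rw [card_singleton] at h2
      omega
    have hpL : ∀ v, v ≠ o → p v ∉ L := by
      intro v hv h
      exact (hL _).1 h v hv rfl
    have hup : ∀ n v, dep v = n → Relation.ReflTransGen (fun a b => R a b ∧ b ∉ L) v o := by
      intro n
      induction n with
      | zero =>
        intro v hv
        by_cases hvo : v = o
        · rw [hvo]
        · have := (hp v hvo).2
          omega
      | succ n ih =>
        intro v hv
        by_cases hvo : v = o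
        · rw [hvo]
        · have h1 := hp v hvo
          exact Relation.ReflTransGen.head ⟨h1.1, hpL v hvo⟩ (ih (p v) (by omega))
    have hdown : ∀ n v, dep v = n →
        Relation.ReflTransGen (fun a b => R a b ∧ (b = v ∨ b ∉ L)) o v := by
      intro n
      induction n with
      | zero =>
        intro v hv
        by_cases hvo : v = o
        · rw [hvo]
        · have := (hp v hvo).2
          omega
      | succ n ih =>
        intro v hv
        by_cases hvo : v = o
        · rw [hvo]
        · have h1 := hp v hvo
          have h2 := ih (p v) (by omega)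
          refine Relation.ReflTransGen.tail (b := p v) ?_ ⟨hR _ _ h1.1, Or.inl rfl⟩
          refine Relation.ReflTransGen.mono (fun a b hab => ?_) _ _ h2
          refine ⟨hab.1, Or.inr ?_⟩
          rcases hab.2 with h | h
          · rw [h]
            exact hpL v hvo
          · exact h
    obtain ⟨L', hL', hL'c⟩ := exists_subset_card_eq hLcard
    let x : Fin (s + 2) ≃ L' := (finCongr hL'c.symm).trans (L'.equivFin).symm
    refine ⟨fun j => x j, ?_, ?_⟩
    · intro j k hjk
      exact x.injective (Subtype.ext hjk)
    · intro j k _
      have hxL : ∀ l, (x l : ι) ∈ L := fun l => hL' (x l).2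
      refine Relation.ReflTransGen.trans (b := o) ?_ ?_
      · refine Relation.ReflTransGen.mono (fun a b hab => ?_) _ _ (hup _ (x j) rfl)
        exact ⟨hab.1, Or.inr fun l h => hab.2 (h ▸ hxL l)⟩
      · refine Relation.ReflTransGen.mono (fun a b hab => ?_) _ _ (hdown _ (x k) rfl)
        refine ⟨hab.1, ?_⟩
        rcases hab.2 with h | h
        · exact Or.inl h
        · exact Or.inr fun l h' => h (h' ▸ hxL l)

end Vale.Agent.P235.H469
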