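import Vale.Agent.P235.H469.Conn
import Vale.Agent.P235.H469.Tuple

/-!
# P235 / GRID G5: horizontal and vertical systems of connected sets give a grid
-/

namespace Vale.Agent.P235.H469

open Finset

variable {V ι : Type*} {G : SimpleGraph V}

/-- the relation between the rows given by one column -/
def Lk (G : SimpleGraph V) (H : ι → Set V) (Y : Set V) (h h' : ι) : Prop :=
  ∃ a ∈ H h, ∃ b ∈ H h', Jn G ((Y \ ⋃ l, H l) ∪ H h ∪ H h') a b

theorem Lk.symm {H : ι → Set V} {Y : Set V} {h h' : ι} (hl : Lk G H Y h h') : Lk G H Y h' h := by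
  obtain ⟨a, ha, b, hb, hab⟩ := hl
  have h1 : a ∈ (Y \ ⋃ l, H l) ∪ H h ∪ H h' := Or.inl (Or.inr ha)
  refine ⟨b, hb, a, ha, (hab.symm h1).mono ?_⟩
  rintro x ((hx | hx) | hx)
  · exact Or.inl (Or.inl hx)
  · exact Or.inr hx
  · exact Or.inl (Or.inr hx)

/-- the relation is connected when the column is connected and meets all rows -/
theorem lk_conn {H : ι → Set V} {Y : Set V} (hY : Cn G Y) (hm : ∀ h, ¬ Disjoint (H h) Y)
    (h h' : ι) : Relation.ReflTransGen (Lk G H Y) h h' := by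
  obtain ⟨a, ha, haY⟩ := Set.not_disjoint_iff.1 (hm h)
  obtain ⟨b, hb, hbY⟩ := Set.not_disjoint_iff.1 (hm h')
  have key : ∀ c, Jn G Y a c → ∃ l, Relation.ReflTransGen (Lk G H Y) h l ∧
      ∃ e ∈ H l, Jn G ((Y \ ⋃ l, H l) ∪ H l) e c := by
    intro c hc
    induction hc with
    | refl => exact ⟨h, Relation.ReflTransGen.refl, a, ha, Jn.refl _ _⟩
    | @tail c c' _ h2 ih =>
      obtain ⟨l, hl, e, he, hec⟩ := ih
      by_cases hc' : ∃ l', c' ∈ H l'
      · obtain ⟨l', hl'⟩ := hc'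
        refine ⟨l', hl.tail ⟨e, he, c', hl', ?_⟩, c', hl', Jn.refl _ _⟩
        refine (hec.mono ?_).trans (Jn.single h2.1 (Or.inr hl'))
        rintro x (hx | hx)
        · exact Or.inl (Or.inl hx)
        · exact Or.inl (Or.inr hx)
      · refine ⟨l, hl, e, he, hec.trans (Jn.single h2.1 (Or.inl ⟨h2.2, ?_⟩))⟩
        intro h'
        exact hc' (Set.mem_iUnion.1 h')
  obtain ⟨l, hl, e, he, heb⟩ := key b (hY.2 a haY b hbY)
  refine hl.tail ⟨e, he, b, hb, heb.mono ?_⟩
  rintro x (hx | hx)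
  · exact Or.inl (Or.inl hx)
  · exact Or.inl (Or.inr hx)

/-- **one column**: a good tuple of rows with links inside the column -/
theorem exists_column [Fintype ι] {H : ι → Set V} {Y : Set V} (hH : ∀ h, Cn G (H h))
    (hdis : ∀ h h', h ≠ h' → Disjoint (H h) (H h')) (hY : Cn G Y)
    (hm : ∀ h, ¬ Disjoint (H h) Y) {r : ℕ} (hr : 2 ≤ r) (hcard : r * (r - 1) ≤ Fintype.card ι) :
    ∃ x : Fin r → ι, Function.Injective x ∧ ∀ j k : Fin r, (j : ℕ) + 1 = k →
      ∃ W : Set V, Cn G (H (x j) ∪ W) ∧ Ad G (H (x j) ∪ W) (H (x k)) ∧ W ⊆ Y ∪ (⋃ h, H h) ∧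
        ∀ l, Disjoint W (H (x l)) := by
  obtain ⟨x, hx, hxx⟩ := exists_good_tuple (R := Lk G H Y) (fun a b h => h.symm)
    (lk_conn hY hm) hr hcard
  refine ⟨x, hx, ?_⟩
  intro j k hjk
  have hjk' : j ≠ k := fun h => by rw [h] at hjk; omega
  let Z : Set V := (Y ∪ ⋃ h, H h) \ ⋃ l : {l : Fin r // l ≠ j ∧ l ≠ k}, H (x l)
  -- rows inside `Z`
  have hHZ : ∀ y, (y = x j ∨ y = x k ∨ ∀ l, y ≠ x l) → H y ⊆ Z := by
    intro y hy v hv
    refine ⟨Or.inr (Set.mem_iUnion.2 ⟨y, hv⟩), ?_⟩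
    intro hv'
    obtain ⟨⟨l, hl⟩, hvl⟩ := Set.mem_iUnion.1 hv'
    have hyl : y ≠ x l := by
      rcases hy with h | h | h
      · rw [h]
        exact fun h' => hl.1 (hx h').symm
      · rw [h]
        exact fun h' => hl.2 (hx h').symm
      · exact h l
    exact Set.disjoint_left.1 (hdis _ _ hyl) hv hvl
  have hYZ : Y \ (⋃ l, H l) ⊆ Z := by
    intro v hv
    refine ⟨Or.inl hv.1, ?_⟩
    intro hv'
    obtain ⟨l, hvl⟩ := Set.mem_iUnion.1 hv'
    exact hv.2 (Set.mem_iUnion.2 ⟨_, hvl⟩)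
  have key : ∀ y, Relation.ReflTransGen
      (fun a b => Lk G H Y a b ∧ (b = x k ∨ ∀ l, b ≠ x l)) (x j) y →
      (y = x j ∨ y = x k ∨ ∀ l, y ≠ x l) ∧ ∀ a ∈ H (x j), ∀ c ∈ H y, Jn G Z a c := by
    intro y hy
    induction hy with
    | refl =>
      refine ⟨Or.inl rfl, fun a ha c hc => ((hH (x j)).2 a ha c hc).mono ?_⟩
      exact hHZ _ (Or.inl rfl)
    | @tail y y' _ h2 ih =>
      obtain ⟨ih1, ih2⟩ := ih
      have hy' : y' = x j ∨ y' = x k ∨ ∀ l, y' ≠ x l := Or.inr h2.2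
      refine ⟨hy', fun a ha c hc => ?_⟩
      obtain ⟨e, he, f, hf, hef⟩ := h2.1
      refine (ih2 a ha e he).trans ((hef.mono ?_).trans (((hH y').2 f hf c hc).mono (hHZ y' hy')))
      exact Set.union_subset (Set.union_subset hYZ (hHZ y ih1)) (hHZ y' hy')
  obtain ⟨a, ha⟩ := (hH (x j)).1
  obtain ⟨b, hb⟩ := (hH (x k)).1
  obtain ⟨W, hW1, hW2, hW3, hW4, hW5⟩ := exists_link
    (hdis (x j) (x k) (fun h => hjk' (hx h))) (hH (x j)) ha hb ((key _ (hxx j k hjk)).2 a ha b hb)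
  refine ⟨W, hW1, hW2, fun v hv => (hW3 hv).1, ?_⟩
  intro l
  by_cases hlj : l = j
  · rw [hlj]; exact hW4
  by_cases hlk : l = k
  · rw [hlk]; exact hW5
  rw [Set.disjoint_left]
  intro v hv hvl
  exact (hW3 hv).2 (Set.mem_iUnion.2 ⟨⟨l, hlj, hlk⟩, hvl⟩)

/-- **G5, crossing systems give a grid.** -/
theorem grid_of_cross [Fintype ι] {r d : ℕ} (hr : 2 ≤ r)
    (hm : r * (r - 1) ≤ Fintype.card ι) (hd : Fintype.card ι ^ r * r ^ 2 ≤ d)
    (hs : ι → ℕ → Set V) (vs : ℕ → Set V)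
    (hc : ∀ h, ∀ i < d, Cn G (hs h i)) (vc : ∀ i < d, Cn G (vs i))
    (hadj : ∀ h i, i + 1 < d → Ad G (hs h i) (hs h (i + 1)))
    (hdis : ∀ h h', ∀ i < d, ∀ i' < d, (h ≠ h' ∨ i ≠ i') → Disjoint (hs h i) (hs h' i'))
    (vdis : ∀ i < d, ∀ i' < d, i ≠ i' → Disjoint (vs i) (vs i'))
    (hv : ∀ h, ∀ i < d, ¬ Disjoint (hs h i) (vs i))
    (hv2 : ∀ h, ∀ i < d, ∀ i' < d, i ≠ i' → Disjoint (hs h i) (vs i')) :
    ∃ B : Fin r → Fin r → Set V, (∀ j k, Cn G (B j k)) ∧
      (∀ j k j' k', (j ≠ j' ∨ k ≠ k') → Disjoint (B j k) (B j' k')) ∧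
      (∀ j j' k : Fin r, (j : ℕ) + 1 = j' → Ad G (B j k) (B j' k)) ∧
      (∀ j k k' : Fin r, (k : ℕ) + 1 = k' → Ad G (B j k) (B j k')) := by
  classical
  have hcol : ∀ i : Fin d, ∃ x : Fin r → ι, Function.Injective x ∧ ∀ j k : Fin r,
      (j : ℕ) + 1 = k → ∃ W : Set V, Cn G (hs (x j) i ∪ W) ∧
        Ad G (hs (x j) i ∪ W) (hs (x k) i) ∧ W ⊆ vs i ∪ (⋃ h, hs h i) ∧
        ∀ l, Disjoint W (hs (x l) i) := by
    intro i
    exact exists_column (H := fun h => hs h i) (Y := vs i) (fun h => hc h i i.2)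
      (fun h h' hh => hdis h h' i i.2 i i.2 (Or.inl hh)) (vc i i.2) (fun h => hv h i i.2) hr hm
  choose X hX1 hX2 using hcol
  -- pigeonhole
  have hιpos : 0 < Fintype.card ι := by
    refine lt_of_lt_of_le ?_ hm
    exact Nat.mul_pos (by omega) (by omega)
  have : Nonempty ι := Fintype.card_pos_iff.1 hιpos
  have : Nonempty (Fin r → ι) := ⟨fun _ => Classical.arbitrary ι⟩
  obtain ⟨x, hx⟩ := Fintype.exists_le_card_fiber_of_mul_le_card (f := X) (n := r ^ 2) (by
    rw [Fintype.card_fun, Fintype.card_fin, Fintype.card_fin]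
    exact hd)
  obtain ⟨F, hF, hFc⟩ := exists_subset_card_eq hx
  let e : Fin (r ^ 2) ≃o F := F.orderIsoOfFin hFc
  have hXe : ∀ q : Fin (r ^ 2), X (e q) = x := fun q => (mem_filter.1 (hF (e q).2)).2
  -- the breakpoints
  let t : ℕ → ℕ := fun q => if h : q < r ^ 2 then ((e ⟨q, h⟩ : Fin d) : ℕ) else d
  have ht : ∀ q (h : q < r ^ 2), t q = ((e ⟨q, h⟩ : Fin d) : ℕ) := fun q h => dif_pos h
  have htd : ∀ q, q < r ^ 2 → t q < d := fun q h => by rw [ht q h]; exact (e ⟨q, h⟩ : Fin d).2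
  have htle : ∀ q, t q ≤ d := by
    intro q
    by_cases h : q < r ^ 2
    · exact (htd q h).le
    · exact (dif_neg h).le
  have htm : ∀ q q', q < q' → q' ≤ r ^ 2 → t q < t q' := by
    intro q q' hqq hq'
    by_cases h : q' < r ^ 2
    · rw [ht q (by omega), ht q' h]
      have h1 : (⟨q, by omega⟩ : Fin (r ^ 2)) < ⟨q', h⟩ := hqq
      exact (e.lt_iff_lt.2 h1)
    · have : q' = r ^ 2 := by omega
      subst this
      have h2 : t (r ^ 2) = d := dif_neg (lt_irrefl _)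
      rw [h2]
      exact htd q (by omega)
  have htinj : ∀ q q', q < r ^ 2 → q' < r ^ 2 → t q = t q' → q = q' := by
    intro q q' hq hq' h
    rcases lt_trichotomy q q' with h1 | h1 | h1
    · have := htm q q' h1 hq'.le
      omega
    · exact h1
    · have := htm q' q h1 hq.le
      omega
  have hqlt : ∀ (k j : Fin r), (k : ℕ) * r + j < r ^ 2 := by
    intro k j
    have h1 : ((k : ℕ) + 1) * r ≤ r * r := Nat.mul_le_mul_right r k.2
    have h2 := j.2
    nlinarith
  have hqinj : ∀ (k j k' j' : Fin r), (k : ℕ) * r + j = (k' : ℕ) * r + j' → k = k' ∧ j = j' := by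
    intro k j k' j' h
    have hk : (k : ℕ) = k' := by
      have h1 : ((k : ℕ) * r + j) / r = k := by
        rw [mul_comm, Nat.mul_add_div (by omega), Nat.div_eq_of_lt j.2, add_zero]
      have h2 : ((k' : ℕ) * r + j') / r = k' := by
        rw [mul_comm, Nat.mul_add_div (by omega), Nat.div_eq_of_lt j'.2, add_zero]
      rw [← h1, ← h2, h]
    refine ⟨Fin.ext hk, Fin.ext ?_⟩
    rw [hk] at h
    omega
  -- the links
  have hW : ∀ k j : Fin r, ∃ W : Set V, Cn G (hs (x j) (t (k * r + j)) ∪ W) ∧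
      (∀ j' : Fin r, (j : ℕ) + 1 = j' →
        Ad G (hs (x j) (t (k * r + j)) ∪ W) (hs (x j') (t (k * r + j)))) ∧
      W ⊆ vs (t (k * r + j)) ∪ (⋃ h, hs h (t (k * r + j))) ∧
      ∀ l, Disjoint W (hs (x l) (t (k * r + j))) := by
    intro k j
    have hq := hqlt k j
    by_cases hj : (j : ℕ) + 1 < r
    · have h1 := hX2 (e ⟨_, hq⟩) j ⟨j + 1, hj⟩ rfl
      rw [hXe, ← ht _ hq] at h1
      obtain ⟨W, hW1, hW2, hW3, hW4⟩ := h1
      refine ⟨W, hW1, ?_, hW3, hW4⟩
      intro j' hj'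
      have : j' = ⟨j + 1, hj⟩ := Fin.ext hj'.symm
      rw [this]
      exact hW2
    · refine ⟨∅, ?_, ?_, Set.empty_subset _, fun l => Set.empty_disjoint _⟩
      · rw [Set.union_empty]
        exact hc _ _ (htd _ hq)
      · intro j' hj'
        have := j'.2
        omega
  choose W hW1 hW2 hW3 hW4 using hW
  have hxinj : Function.Injective x := by
    have h0 : 0 < r ^ 2 := by positivity
    have := hX1 (e ⟨0, h0⟩)
    rwa [hXe] at this
  -- the blocks
  have hblt : ∀ k : Fin r, t ((k : ℕ) * r) < t (((k : ℕ) + 1) * r) := by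
    intro k
    refine htm _ _ ?_ ?_
    · have : 0 < r := by omega
      nlinarith
    · have h1 : ((k : ℕ) + 1) * r ≤ r * r := Nat.mul_le_mul_right r k.2
      nlinarith
  have hmem : ∀ k j : Fin r, t ((k : ℕ) * r + j) ∈
      Set.Ico (t ((k : ℕ) * r)) (t (((k : ℕ) + 1) * r)) := by
    intro k j
    have hle : ((k : ℕ) + 1) * r ≤ r ^ 2 := by
      have h1 : ((k : ℕ) + 1) * r ≤ r * r := Nat.mul_le_mul_right r k.2
      nlinarith
    constructor
    · rcases Nat.eq_zero_or_pos (j : ℕ) with h | h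
      · rw [h, add_zero]
      · exact (htm _ _ (by omega) (hqlt k j).le).le
    · refine htm _ _ ?_ hle
      have := j.2
      nlinarith
  have hblk : ∀ k k' : Fin r, k < k' → t (((k : ℕ) + 1) * r) ≤ t ((k' : ℕ) * r) := by
    intro k k' hkk
    have hkk' : (k : ℕ) + 1 ≤ k' := hkk
    have h1 : ((k : ℕ) + 1) * r ≤ (k' : ℕ) * r := Nat.mul_le_mul_right r hkk'
    rcases Nat.lt_or_ge (((k : ℕ) + 1) * r) ((k' : ℕ) * r) with h | h
    · refine (htm _ _ h ?_).le
      have h2 : (k' : ℕ) * r ≤ r * r := Nat.mul_le_mul_right r k'.2.le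
      nlinarith
    · rw [le_antisymm h1 h]
  let S : Fin r → Fin r → Set V := fun j k =>
    ⋃ i ∈ Set.Ico (t ((k : ℕ) * r)) (t (((k : ℕ) + 1) * r)), hs (x j) i
  have hSmem : ∀ (j k : Fin r) (i : ℕ), i ∈ Set.Ico (t ((k : ℕ) * r)) (t (((k : ℕ) + 1) * r)) →
      hs (x j) i ⊆ S j k := by
    intro j k i hi v hv
    exact Set.mem_biUnion hi hv
  have hScn : ∀ j k : Fin r, Cn G (S j k) := by
    intro j k
    refine cn_chain _ _ _ (hblt k) ?_ ?_
    · intro i _ h2
      exact hc _ _ (lt_of_lt_of_le h2 (htle _))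
    · intro i _ h2
      exact hadj _ _ (lt_of_lt_of_le h2 (htle _))
  let B : Fin r → Fin r → Set V := fun j k => S j k ∪ (hs (x j) (t ((k : ℕ) * r + j)) ∪ W k j)
  have hBSW : ∀ j k : Fin r, ∀ v ∈ B j k, (∃ i ∈ Set.Ico (t ((k : ℕ) * r)) (t (((k : ℕ) + 1) * r)),
      v ∈ hs (x j) i) ∨ v ∈ W k j := by
    rintro j k v (h | h | h)
    · simp only [S, Set.mem_iUnion, exists_prop] at h
      exact Or.inl h
    · exact Or.inl ⟨_, hmem k j, h⟩
    · exact Or.inr h
  -- a segment is disjoint from the links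
  have hsegW : ∀ (j k j' : Fin r) (i : ℕ), i < d → Disjoint (hs (x j) i) (W k j') := by
    intro j k j' i hi
    have hq := hqlt k j'
    by_cases h : i = t ((k : ℕ) * r + j')
    · rw [h]
      exact (hW4 k j' j).symm
    · rw [Set.disjoint_left]
      intro v hv hvW
      rcases hW3 k j' hvW with h1 | h1
      · exact Set.disjoint_left.1 (hv2 (x j) i hi _ (htd _ hq) h) hv h1
      · obtain ⟨h', h1⟩ := Set.mem_iUnion.1 h1
        exact Set.disjoint_left.1 (hdis (x j) h' i hi _ (htd _ hq) (Or.inr h)) hv h1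
  refine ⟨B, ?_, ?_, ?_, ?_⟩
  · intro j k
    refine (hScn j k).union_inter (hW1 k j) ?_
    obtain ⟨v, hv⟩ := (hc (x j) _ (htd _ (hqlt k j))).1
    exact ⟨v, hSmem j k _ (hmem k j) hv, Or.inl hv⟩
  · intro j k j' k' hne
    rw [Set.disjoint_left]
    intro v hv hv'
    rcases hBSW j k v hv with ⟨i, hi, hvi⟩ | hvW
    · have hid : i < d := lt_of_lt_of_le hi.2 (htle _)
      rcases hBSW j' k' v hv' with ⟨i', hi', hvi'⟩ | hvW'
      · have hid' : i' < d := lt_of_lt_of_le hi'.2 (htle _)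
        refine Set.disjoint_left.1 (hdis (x j) (x j') i hid i' hid' ?_) hvi hvi'
        rcases hne with h | h
        · exact Or.inl fun h' => h (hxinj h')
        · right
          rintro rfl
          rcases lt_or_gt_of_ne h with h1 | h1
          · have := hblk k k' h1
            have := hi.2
            have := hi'.1
            omega
          · have := hblk k' k h1
            have := hi'.2
            have := hi.1
            omega
      · exact Set.disjoint_left.1 (hsegW j k' j' i hid) hvi hvW'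
    · rcases hBSW j' k' v hv' with ⟨i', hi', hvi'⟩ | hvW'
      · have hid' : i' < d := lt_of_lt_of_le hi'.2 (htle _)
        exact Set.disjoint_left.1 (hsegW j' k j i' hid') hvi' hvW
      · have hq := hqlt k j
        have hq' := hqlt k' j'
        have hne' : t ((k : ℕ) * r + j) ≠ t ((k' : ℕ) * r + j') := by
          intro h
          have h1 := hqinj k j k' j' (htinj _ _ hq hq' h)
          rcases hne with h2 | h2
          · exact h2 h1.2
          · exact h2 h1.1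
        rcases hW3 k j hvW with h1 | h1
        · rcases hW3 k' j' hvW' with h2 | h2
          · exact Set.disjoint_left.1 (vdis _ (htd _ hq) _ (htd _ hq') hne') h1 h2
          · obtain ⟨h', h2⟩ := Set.mem_iUnion.1 h2
            exact Set.disjoint_left.1 (hv2 h' _ (htd _ hq') _ (htd _ hq) hne'.symm) h2 h1
        · obtain ⟨h', h1⟩ := Set.mem_iUnion.1 h1
          rcases hW3 k' j' hvW' with h2 | h2
          · exact Set.disjoint_left.1 (hv2 h' _ (htd _ hq) _ (htd _ hq') hne') h1 h2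
          · obtain ⟨h'', h2⟩ := Set.mem_iUnion.1 h2
            exact Set.disjoint_left.1 (hdis h' h'' _ (htd _ hq) _ (htd _ hq') (Or.inr hne')) h1 h2
  · intro j j' k hjj
    refine (hW2 k j j' hjj).mono Set.subset_union_right ?_
    exact (hSmem j' k _ (hmem k j)).trans Set.subset_union_left
  · intro j k k' hkk
    have hpos : t ((k : ℕ) * r) < t (((k : ℕ) + 1) * r) := hblt k
    have hlast : t (((k : ℕ) + 1) * r) - 1 ∈ Set.Ico (t ((k : ℕ) * r)) (t (((k : ℕ) + 1) * r)) :=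
      ⟨by omega, by omega⟩
    have hfirst : t (((k : ℕ) + 1) * r) ∈
        Set.Ico (t ((k' : ℕ) * r)) (t (((k' : ℕ) + 1) * r)) := by
      rw [hkk]
      exact ⟨le_rfl, hblt k'⟩
    have h1 := hadj (x j) (t (((k : ℕ) + 1) * r) - 1) (by
      have h3 := hfirst.2
      have h4 := htle (((k' : ℕ) + 1) * r)
      omega)
    have h2 : t (((k : ℕ) + 1) * r) - 1 + 1 = t (((k : ℕ) + 1) * r) := by omega
    rw [h2] at h1
    exact h1.mono ((hSmem j k _ hlast).trans Set.subset_union_left)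
      ((hSmem j k' _ hfirst).trans Set.subset_union_left)

end Vale.Agent.P235.H469
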