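import Vale.Agent.P235.H134.Grid.Stmts
import Vale.Agent.P235.H469.Cross

/-!
# P235 / GRID: rows G4 (`GoodTupleStmt`) and G5 (`GridStmt`)
-/

namespace Vale.Agent.P235.H469

open SimpleGraph Vale.Agent.P235.H134

/-- connected sets are the sets with connected induced graph -/
theorem cn_of_induce {V : Type*} {G : SimpleGraph V} {S : Set V} (h : (G.induce S).Connected) :
    Cn G S := by
  obtain ⟨⟨a, ha⟩⟩ := h.nonempty
  refine ⟨⟨a, ha⟩, ?_⟩
  intro a ha b hb
  obtain ⟨w⟩ := h.preconnected ⟨a, ha⟩ ⟨b, hb⟩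
  have key : ∀ (x y : S) (_ : (G.induce S).Walk x y), Jn G S x.1 y.1 := by
    intro x y w
    induction w with
    | nil => exact Jn.refl _ _
    | @cons u v w h _ ih => exact (Jn.single (show G.Adj u.1 v.1 from h) v.2).trans ih
  exact key _ _ w

theorem induce_of_cn {V : Type*} {G : SimpleGraph V} {S : Set V} (h : Cn G S) :
    (G.induce S).Connected := by
  obtain ⟨⟨a, ha⟩, h⟩ := h
  have key : ∀ (x : V) (hx : x ∈ S) (y : V), Jn G S x y →
      ∃ hy : y ∈ S, (G.induce S).Reachable ⟨x, hx⟩ ⟨y, hy⟩ := by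
    intro x hx y hxy
    induction hxy with
    | refl => exact ⟨hx, Reachable.refl _⟩
    | @tail y z _ h2 ih =>
      obtain ⟨hy, ih⟩ := ih
      refine ⟨h2.2, ih.trans ?_⟩
      have h3 : (G.induce S).Adj ⟨y, hy⟩ ⟨z, h2.2⟩ := h2.1
      exact h3.reachable
  refine connected_iff_exists_forall_reachable _ |>.2 ⟨⟨a, ha⟩, ?_⟩
  rintro ⟨y, hy⟩
  obtain ⟨hy', h'⟩ := key a ha y (h a ha y hy)
  exact h'

/-- **(G4)** -/
theorem goodTuple : GoodTupleStmt := by
  intro r hr ι _ T hT hm
  obtain ⟨x, hx, hxx⟩ := exists_good_tuple (R := T.Adj) (fun a b h => h.symm) (by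
    intro a b
    obtain ⟨w⟩ := hT.preconnected a b
    induction w with
    | nil => exact Relation.ReflTransGen.refl
    | cons h _ ih => exact Relation.ReflTransGen.head h ih) hr hm
  refine ⟨x, hx, ?_⟩
  intro j hj
  have key : ∀ y, Relation.ReflTransGen (fun a b => T.Adj a b ∧ (b = x ⟨j + 1, hj⟩ ∨ ∀ l, b ≠ x l))
      (x ⟨j, Nat.lt_of_succ_lt hj⟩) y →
      ∃ w : T.Walk (x ⟨j, Nat.lt_of_succ_lt hj⟩) y,
        ∀ i : Fin r, x i ∈ w.support → i.val = j ∨ i.val = j + 1 := by
    intro y hy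
    induction hy with
    | refl =>
      refine ⟨Walk.nil, ?_⟩
      intro i hi
      rw [Walk.support_nil, List.mem_singleton] at hi
      exact Or.inl (congrArg Fin.val (hx hi))
    | @tail y z _ h2 ih =>
      obtain ⟨w, hw⟩ := ih
      refine ⟨w.concat h2.1, ?_⟩
      intro i hi
      rw [Walk.support_concat, List.mem_append, List.mem_singleton] at hi
      rcases hi with hi | hi
      · exact hw i hi
      · rcases h2.2 with h3 | h3
        · exact Or.inr (congrArg Fin.val (hx (hi.trans h3)))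
        · exact absurd hi.symm (h3 i)
  exact key _ (hxx ⟨j, _⟩ ⟨j + 1, hj⟩ rfl)

/-- **(G5)** -/
theorem gridOfSegments : GridStmt := by
  intro r hr V _ G d hd hseg
  classical
  obtain ⟨L, U, b, hL, hUc, hUd, hb, hmeet, hin⟩ := hseg
  let c : Fin (r * (r - 1)) → ℕ → ℕ := fun i n => min (b i n) ((L i).len + 1)
  let hs : Fin (r * (r - 1)) → ℕ → Set V := fun i n =>
    ⋃ t ∈ Set.Ico (c i n) (c i (n + 1)), {(L i).f t}
  let vs : ℕ → Set V := fun n => if h : n < d then U ⟨n, h⟩ else ∅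
  have hvs : ∀ n (h : n < d), vs n = U ⟨n, h⟩ := fun n h => dif_pos h
  have hcle : ∀ i n, c i n ≤ (L i).len + 1 := fun i n => min_le_right _ _
  have hcmono : ∀ i, Monotone (c i) := fun i => (hb i).min monotone_const
  have hhs : ∀ i n v, v ∈ hs i n ↔ ∃ t, c i n ≤ t ∧ t < c i (n + 1) ∧ v = (L i).f t := by
    intro i n v
    simp only [hs, Set.mem_iUnion, Set.mem_Ico, Set.mem_singleton_iff, exists_prop, and_assoc]
  have htc : ∀ i n t, c i n ≤ t → t < c i (n + 1) → t ≤ (L i).len ∧ b i n ≤ t ∧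
      t < b i (n + 1) := by
    intro i n t h1 h2
    simp only [c] at h1 h2
    omega
  have hct : ∀ i n t, t ≤ (L i).len → b i n ≤ t → t < b i (n + 1) → c i n ≤ t ∧
      t < c i (n + 1) := by
    intro i n t h1 h2 h3
    simp only [c]
    omega
  have hclt : ∀ i n, n < d → c i n < c i (n + 1) := by
    intro i n hn
    obtain ⟨t, ht, htU⟩ := hmeet i ⟨n, hn⟩
    have h1 := hin i ⟨n, hn⟩ t ht htU
    have h2 := hct i n t ht h1.1 h1.2
    omega
  have hverts : ∀ i n, hs i n ⊆ (L i).verts := by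
    intro i n v hv
    obtain ⟨t, h1, h2, rfl⟩ := (hhs i n v).1 hv
    exact ⟨t, (htc i n t h1 h2).1, rfl⟩
  have q0 : ∀ i, ∀ n < d, Cn G (hs i n) := by
    intro i n hn
    refine cn_chain (fun t => {(L i).f t}) _ _ (hclt i n hn) ?_ ?_
    · intro t _ _
      refine cn_of_base (a := (L i).f t) rfl ?_
      intro y hy
      have : y = (L i).f t := hy
      rw [this]
      exact Jn.refl _ _
    · intro t _ ht
      have h1 := hcle i (n + 1)
      exact ⟨_, rfl, _, rfl, (L i).adj t (by omega)⟩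
  have q1 : ∀ n < d, Cn G (vs n) := by
    intro n hn
    rw [hvs n hn]
    exact cn_of_induce (hUc _)
  have q2 : ∀ i n, n + 1 < d → Ad G (hs i n) (hs i (n + 1)) := by
    intro i n hn
    have h1 := hclt i n (by omega)
    have h2 := hclt i (n + 1) hn
    have h3 := hcle i (n + 1 + 1)
    obtain ⟨t, ht⟩ : ∃ t, c i (n + 1) = t + 1 := ⟨c i (n + 1) - 1, by omega⟩
    refine ⟨(L i).f t, (hhs _ _ _).2 ⟨t, by omega, by omega, rfl⟩, (L i).f (t + 1),
      (hhs _ _ _).2 ⟨t + 1, by omega, by omega, rfl⟩, (L i).adj t (by omega)⟩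
  have q3 : ∀ i i', ∀ n < d, ∀ n' < d, (i ≠ i' ∨ n ≠ n') → Disjoint (hs i n) (hs i' n') := by
    intro i i' n hn n' hn' hne
    by_cases hii : i = i'
    · subst hii
      have hnn : n ≠ n' := by
        rcases hne with h | h
        · exact absurd rfl h
        · exact h
      rw [Set.disjoint_left]
      intro v hv hv'
      obtain ⟨t, h1, h2, h3⟩ := (hhs _ _ _).1 hv
      obtain ⟨t', h1', h2', h3'⟩ := (hhs _ _ _).1 hv'
      have h4 := (L i).inj t (htc i n t h1 h2).1 t' (htc i n' t' h1' h2').1 (h3.symm.trans h3')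
      subst h4
      rcases lt_or_gt_of_ne hnn with h | h
      · have := hcmono i (show n + 1 ≤ n' from h)
        omega
      · have := hcmono i (show n' + 1 ≤ n from h)
        omega
    · exact (hL i i' hii).mono (hverts i n) (hverts i' n')
  have q4 : ∀ n < d, ∀ n' < d, n ≠ n' → Disjoint (vs n) (vs n') := by
    intro n hn n' hn' hne
    rw [hvs n hn, hvs n' hn']
    exact hUd _ _ (fun h => hne (congrArg Fin.val h))
  have q5 : ∀ i, ∀ n < d, ¬ Disjoint (hs i n) (vs n) := by
    intro i n hn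
    rw [hvs n hn, Set.not_disjoint_iff]
    obtain ⟨t, ht, htU⟩ := hmeet i ⟨n, hn⟩
    have h1 := hin i ⟨n, hn⟩ t ht htU
    have h2 := hct i n t ht h1.1 h1.2
    exact ⟨(L i).f t, (hhs _ _ _).2 ⟨t, h2.1, h2.2, rfl⟩, htU⟩
  have q6 : ∀ i, ∀ n < d, ∀ n' < d, n ≠ n' → Disjoint (hs i n) (vs n') := by
    intro i n hn n' hn' hne
    rw [hvs n' hn', Set.disjoint_left]
    intro v hv hv'
    obtain ⟨t, h1, h2, rfl⟩ := (hhs _ _ _).1 hv
    have h3 := htc i n t h1 h2
    have h4 : b i n' ≤ t ∧ t < b i (n' + 1) := hin i ⟨n', hn'⟩ t h3.1 hv'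
    rcases lt_or_gt_of_ne hne with h | h
    · have := hb i (show n + 1 ≤ n' from h)
      omega
    · have := hb i (show n' + 1 ≤ n from h)
      omega
  obtain ⟨B, hB1, hB2, hB3, hB4⟩ := grid_of_cross (G := G) (r := r) (d := d) hr
    (by rw [Fintype.card_fin]) (by
      rw [Fintype.card_fin]
      calc (r * (r - 1)) ^ r * r ^ 2 = r * r * (r * (r - 1)) ^ r := by ring
        _ ≤ d := hd) hs vs q0 q1 q2 q3 q4 q5 q6
  refine ⟨fun a => B a.1 a.2, fun a => induce_of_cn (hB1 _ _), ?_, ?_⟩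
  · intro a a' haa
    refine hB2 _ _ _ _ ?_
    by_contra h
    push Not at h
    exact haa (Prod.ext h.1 h.2)
  · intro a a' haa
    have haa' : (pathGraph r □ pathGraph r).Adj a a' := haa
    rw [boxProd_adj] at haa'
    rcases haa' with ⟨h1, h2⟩ | ⟨h1, h2⟩
    · rw [pathGraph_adj] at h1
      rcases h1 with h1 | h1
      · have := hB3 a.1 a'.1 a.2 h1
        rw [show B a'.1 a.2 = B a'.1 a'.2 by rw [h2]] at this
        exact this
      · have := (hB3 a'.1 a.1 a'.2 h1).symm
        rw [show B a.1 a'.2 = B a.1 a.2 by rw [h2]] at this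
        exact this
    · rw [pathGraph_adj] at h1
      rcases h1 with h1 | h1
      · have := hB4 a.1 a.2 a'.2 h1
        rw [show B a.1 a'.2 = B a'.1 a'.2 by rw [h2]] at this
        exact this
      · have := (hB4 a'.1 a'.2 a.2 h1).symm
        rw [show B a'.1 a.2 = B a.1 a.2 by rw [h2]] at this
        exact this

end Vale.Agent.P235.H469
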