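import Mathlib

/-!
# P235 / GRID: connected sets of a graph, rooted trees, good tuples
-/

namespace Vale.Agent.P235.H469

open Finset

variable {V : Type*} (G : SimpleGraph V)

/-- `a` and `b` are joined inside the set `S` -/
def Jn (S : Set V) (a b : V) : Prop := Relation.ReflTransGen (fun x y => G.Adj x y ∧ y ∈ S) a b

variable {G}

theorem Jn.refl (S : Set V) (a : V) : Jn G S a a := Relation.ReflTransGen.refl

theorem Jn.trans {S : Set V} {a b c : V} (h : Jn G S a b) (h' : Jn G S b c) : Jn G S a c :=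
  Relation.ReflTransGen.trans h h'

theorem Jn.single {S : Set V} {a b : V} (h : G.Adj a b) (hb : b ∈ S) : Jn G S a b :=
  Relation.ReflTransGen.single ⟨h, hb⟩

theorem Jn.mono {S T : Set V} (hST : S ⊆ T) {a b : V} (h : Jn G S a b) : Jn G T a b := by
  induction h with
  | refl => exact Jn.refl T a
  | tail _ h2 ih => exact ih.trans (Jn.single h2.1 (hST h2.2))

theorem Jn.mem {S : Set V} {a b : V} (h : Jn G S a b) (ha : a ∈ S) : b ∈ S := by
  induction h with
  | refl => exact ha
  | tail _ h _ => exact h.2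

theorem Jn.symm {S : Set V} {a b : V} (ha : a ∈ S) (h : Jn G S a b) : Jn G S b a := by
  induction h with
  | refl => exact Jn.refl S a
  | tail h1 h2 ih =>
    exact (Jn.single h2.1.symm (Jn.mem h1 ha)).trans ih

variable (G) in
/-- nonempty connected sets of vertices -/
def Cn (S : Set V) : Prop := S.Nonempty ∧ ∀ a ∈ S, ∀ b ∈ S, Jn G S a b

variable (G) in
/-- adjacent sets -/
def Ad (S T : Set V) : Prop := ∃ a ∈ S, ∃ b ∈ T, G.Adj a b

theorem Ad.symm {S T : Set V} (h : Ad G S T) : Ad G T S := by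
  obtain ⟨a, ha, b, hb, h⟩ := h
  exact ⟨b, hb, a, ha, h.symm⟩

theorem Ad.mono {S S' T T' : Set V} (h : Ad G S T) (hS : S ⊆ S') (hT : T ⊆ T') : Ad G S' T' := by
  obtain ⟨a, ha, b, hb, h⟩ := h
  exact ⟨a, hS ha, b, hT hb, h⟩

/-- a set containing a base point joined to all its points is connected -/
theorem cn_of_base {S : Set V} {a : V} (ha : a ∈ S) (h : ∀ b ∈ S, Jn G S a b) : Cn G S :=
  ⟨⟨a, ha⟩, fun b hb c hc => ((h b hb).symm ha).trans (h c hc)⟩

theorem Cn.union_inter {S T : Set V} (hS : Cn G S) (hT : Cn G T) (h : (S ∩ T).Nonempty) :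
    Cn G (S ∪ T) := by
  obtain ⟨a, ha, ha'⟩ := h
  refine cn_of_base (Or.inl ha) fun b hb => ?_
  rcases hb with hb | hb
  · exact (hS.2 a ha b hb).mono Set.subset_union_left
  · exact (hT.2 a ha' b hb).mono Set.subset_union_right

theorem Cn.union_adj {S T : Set V} (hS : Cn G S) (hT : Cn G T) (h : Ad G S T) :
    Cn G (S ∪ T) := by
  obtain ⟨a, ha, c, hc, hac⟩ := h
  refine cn_of_base (Or.inl ha) fun b hb => ?_
  rcases hb with hb | hb
  · exact (hS.2 a ha b hb).mono Set.subset_union_left
  · exact (Jn.single hac (Or.inr hc)).trans ((hT.2 c hc b hb).mono Set.subset_union_right)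

/-- **link lemma**: if the disjoint connected sets `A` and `B` are joined inside `Y` then there is
`W` in `Y` disjoint from `A` and `B` (possibly empty) such that `A ∪ W` is connected and adjacent
to `B` -/
theorem exists_link {Y A B : Set V} (hAB : Disjoint A B) (hA : Cn G A)
    {a b : V} (ha : a ∈ A) (hb : b ∈ B) (h : Jn G Y a b) :
    ∃ W : Set V, Cn G (A ∪ W) ∧ Ad G (A ∪ W) B ∧ W ⊆ Y ∧ Disjoint W A ∧ Disjoint W B := by
  have key : ∀ c, Jn G Y a c → (∃ W : Set V, Cn G (A ∪ W) ∧ c ∈ A ∪ W ∧ W ⊆ Y ∧ Disjoint W A ∧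
      Disjoint W B) ∨ (∃ W : Set V, Cn G (A ∪ W) ∧ Ad G (A ∪ W) B ∧ W ⊆ Y ∧ Disjoint W A ∧
      Disjoint W B) := by
    intro c hc
    induction hc with
    | refl =>
      refine Or.inl ⟨∅, ?_, Or.inl ha, Set.empty_subset _, Set.empty_disjoint _, Set.empty_disjoint _⟩
      rw [Set.union_empty]
      exact hA
    | @tail c e h1 h2 ih =>
      rcases ih with ih | ih
      · obtain ⟨W, hW, hcW, hWY, hWA, hWB⟩ := ih
        by_cases heB : e ∈ B
        · exact Or.inr ⟨W, hW, ⟨c, hcW, e, heB, h2.1⟩, hWY, hWA, hWB⟩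
        · by_cases heA : e ∈ A
          · exact Or.inl ⟨W, hW, Or.inl heA, hWY, hWA, hWB⟩
          · refine Or.inl ⟨W ∪ {e}, ?_, Or.inr (Or.inr rfl), ?_, ?_, ?_⟩
            · rw [← Set.union_assoc]
              refine hW.union_adj ⟨⟨e, rfl⟩, ?_⟩ ⟨c, hcW, e, rfl, h2.1⟩
              intro x hx y hy
              have hx' : x = e := hx
              have hy' : y = e := hy
              rw [hx', hy']
              exact Jn.refl _ _
            · exact Set.union_subset hWY (Set.singleton_subset_iff.2 h2.2)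
            · exact Set.disjoint_union_left.2 ⟨hWA, Set.disjoint_singleton_left.2 heA⟩
            · exact Set.disjoint_union_left.2 ⟨hWB, Set.disjoint_singleton_left.2 heB⟩
      · exact Or.inr ih
  rcases key b h with h | h
  · obtain ⟨W, hW, hbW, hWY, hWA, hWB⟩ := h
    exfalso
    rcases hbW with h' | h'
    · exact Set.disjoint_left.1 hAB h' hb
    · exact Set.disjoint_left.1 hWB h' hb
  · exact h

/-- a union of consecutive adjacent connected sets is connected -/
theorem cn_chain (S : ℕ → Set V) (a : ℕ) : ∀ b, a < b → (∀ i, a ≤ i → i < b → Cn G (S i)) →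
    (∀ i, a ≤ i → i + 1 < b → Ad G (S i) (S (i + 1))) →
    Cn G (⋃ i ∈ Set.Ico a b, S i) := by
  intro b
  induction b with
  | zero => intro h; exact absurd h (Nat.not_lt_zero _)
  | succ b ih =>
    intro hab hc had
    rcases Nat.lt_or_ge a b with h | h
    · have h1 := ih h (fun i h1 h2 => hc i h1 (by omega)) (fun i h1 h2 => had i h1 (by omega))
      have h2 : (⋃ i ∈ Set.Ico a (b + 1), S i) = (⋃ i ∈ Set.Ico a b, S i) ∪ S b := by
        ext x
        simp only [Set.mem_iUnion, Set.mem_union, Set.mem_Ico, exists_prop]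
        constructor
        · rintro ⟨i, ⟨h1, h2⟩, h3⟩
          rcases Nat.lt_or_ge i b with h4 | h4
          · exact Or.inl ⟨i, ⟨h1, h4⟩, h3⟩
          · have : i = b := by omega
            exact Or.inr (this ▸ h3)
        · rintro (⟨i, ⟨h1, h2⟩, h3⟩ | h3)
          · exact ⟨i, ⟨h1, by omega⟩, h3⟩
          · exact ⟨b, ⟨h.le, by omega⟩, h3⟩
      rw [h2]
      refine h1.union_adj (hc b h.le (by omega)) ?_
      obtain ⟨c, rfl⟩ : ∃ c, b = c + 1 := ⟨b - 1, by omega⟩
      refine (had c (by omega) (by omega)).mono ?_ le_rfl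
      intro x hx
      simp only [Set.mem_iUnion, Set.mem_Ico, exists_prop]
      exact ⟨c, ⟨by omega, by omega⟩, hx⟩
    · have hab' : a = b := by omega
      subst hab'
      have h2 : (⋃ i ∈ Set.Ico a (a + 1), S i) = S a := by
        ext x
        simp only [Set.mem_iUnion, Set.mem_Ico, exists_prop]
        constructor
        · rintro ⟨i, ⟨h1, h2⟩, h3⟩
          have : i = a := by omega
          exact this ▸ h3
        · intro h3
          exact ⟨a, ⟨le_rfl, by omega⟩, h3⟩
      rw [h2]
      exact hc a le_rfl (by omega)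

end Vale.Agent.P235.H469
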